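import Vale.Agent.H10.OTUpper

namespace Vale.Agent.Results.P074.ConjectureHalfFalse

open Vale.Agent.H10.OT

/-- In every dimension `d ≥ 2` no exponent above `1/3` is admissible; in particular the exponent
`1/2` is not admissible, and the critical exponent is at most `1/3`. -/
theorem result (d : ℕ) (hd : 2 ≤ d) :
    (∀ α : ℝ, Admissible d α → α ≤ 1 / 3) ∧ ¬ Admissible d (1 / 2) ∧ alphaStar d ≤ 1 / 3 := by
  have h1 : ∀ α : ℝ, Admissible d α → α ≤ 1 / 3 := by
    intro α hα
    by_contra hcon
    exact not_admissible hd (not_le.1 hcon) hα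
  refine ⟨h1, ?_, ?_⟩
  · intro h
    have := h1 _ h
    norm_num at this
  · exact Real.sSup_le (fun α hα => h1 α hα) (by norm_num)

end Vale.Agent.Results.P074.ConjectureHalfFalse
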