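import Vale.Agent.H10.OTUpper
import Vale.Agent.H10.OTLower

namespace Vale.Agent.Results.P074.ExponentBracket

open Vale.Agent.H10.OT

/-- In every dimension `d ≥ 2` the exponent `1/4` is admissible and no exponent above `1/3` is
admissible; in particular `1/2` is not admissible and `1/4 ≤ α*_d ≤ 1/3`. -/
theorem result (d : ℕ) (hd : 2 ≤ d) :
    Admissible d (1 / 4) ∧ (∀ α : ℝ, Admissible d α → α ≤ 1 / 3) ∧ ¬ Admissible d (1 / 2) ∧
      1 / 4 ≤ alphaStar d ∧ alphaStar d ≤ 1 / 3 := by
  have h1 : ∀ α : ℝ, Admissible d α → α ≤ 1 / 3 := by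
    intro α hα
    by_contra hcon
    exact not_admissible hd (not_le.1 hcon) hα
  have h0 : Admissible d (1 / 4) := by
    refine ⟨⟨by norm_num, by norm_num⟩, ?_⟩
    intro K hKc hKconv hKi Y hY _
    haveI : NeZero d := ⟨by omega⟩
    haveI : Nontrivial (EuclideanSpace ℝ (Fin d)) := inferInstance
    exact stable_quarter hKc hKconv hKi hY
  refine ⟨h0, h1, ?_, ?_, ?_⟩
  · intro h
    have := h1 _ h
    norm_num at this
  · exact le_csSup ⟨1 / 3, fun α hα => h1 α hα⟩ h0
  · exact Real.sSup_le (fun α hα => h1 α hα) (by norm_num)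

end Vale.Agent.Results.P074.ExponentBracket
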