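import Vale.Agent.H10.OTDiscFinal
import Vale.Agent.H10.OTApprox
import Vale.Agent.H10.OTUpper

namespace Vale.Agent.Results.P074.ExponentOneThird

open Vale.Agent.H10.OT

/-- In every dimension `d ≥ 2` the critical stability exponent `α*_d` is `1/3`, and it is
attained: the exponent `1/3` is admissible, no exponent above `1/3` is, `α*_d = 1/3`; in
particular the conjectured exponent `1/2` is not admissible. -/
theorem result (d : ℕ) (hd : 2 ≤ d) :
    Admissible d (1 / 3) ∧ (∀ α : ℝ, Admissible d α → α ≤ 1 / 3) ∧ alphaStar d = 1 / 3 ∧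
      ¬ Admissible d (1 / 2) := by
  have h1 : ∀ α : ℝ, Admissible d α → α ≤ 1 / 3 := by
    intro α hα
    by_contra hcon
    exact not_admissible hd (not_le.1 hcon) hα
  have h0 : Admissible d (1 / 3) := by
    refine ⟨⟨by norm_num, by norm_num⟩, ?_⟩
    intro K hKc hKconv hKi Y hY _
    haveI : NeZero d := ⟨by omega⟩
    haveI : Nontrivial (EuclideanSpace ℝ (Fin d)) := inferInstance
    exact stable_third_of_disc hKc hKconv hKi hY (fun M hM => discStab hKc hKconv hKi hM)
  refine ⟨h0, h1, ?_, ?_⟩
  · exact le_antisymm (Real.sSup_le (fun α hα => h1 α hα) (by norm_num))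
      (le_csSup ⟨1 / 3, fun α hα => h1 α hα⟩ h0)
  · intro h
    have := h1 _ h
    norm_num at this

end Vale.Agent.Results.P074.ExponentOneThird
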